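import Vale.Agent.P254.H657.Iface
import Vale.Agent.P254.H54.Commute

/-! Block E3 of the equality case (helper54). -/

open Matrix

namespace Vale.Agent.P254.H54

open Eq657
open L (Mat Ten NN frT Vec)

lemma sum2 {n : ℕ} (c : ℝ) (f g : Fin n → ℝ) :
    c * (∑ a, f a) * (∑ b, g b) = ∑ a, ∑ b, c * f a * g b := by
  rw [mul_assoc, Finset.sum_mul_sum, Finset.mul_sum]
  refine Finset.sum_congr rfl fun a _ => ?_
  rw [Finset.mul_sum]
  exact Finset.sum_congr rfl fun b _ => by ring

lemma sum3 {n : ℕ} (c : ℝ) (f g h : Fin n → ℝ) :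
    c * (∑ a, f a) * (∑ b, g b) * (∑ d, h d) = ∑ a, ∑ b, ∑ d, c * f a * g b * h d := by
  rw [sum2 c f g, Finset.sum_mul]
  refine Finset.sum_congr rfl fun a _ => ?_
  rw [Finset.sum_mul]
  refine Finset.sum_congr rfl fun b _ => ?_
  rw [Finset.mul_sum]

/-- **Block E3.** -/
theorem E3 : StmtE3 := by
  classical
  intro n T hT hc htr _
  obtain ⟨U, t, hU, hTU⟩ := odeco_of_commute T (fun i j k => hT.1 i j k) (fun i j k => hT.2 i j k)
    (fun a b => hc a b)
  have hU' : Uᵀ * U = 1 := mul_eq_one_comm.mp hU
  have orth : ∀ i j, ∑ a, U i a * U j a = if i = j then 1 else 0 := by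
    intro i j
    have h := congrFun (congrFun hU i) j
    rw [Matrix.mul_apply, Matrix.one_apply] at h
    rw [← h]
    exact Finset.sum_congr rfl fun b _ => by rw [Matrix.transpose_apply]
  -- the array in the frame `U`
  have hfr : ∀ i j k, (∑ a, ∑ b, ∑ c, U i a * U j b * U k c * T a b c) =
      if i = j ∧ j = k then t i else 0 := by
    intro i j k
    have e1 : ∀ a b c, U i a * U j b * U k c * T a b c =
        ∑ l, t l * (U i a * U l a) * (U j b * U l b) * (U k c * U l c) := by
      intro a b c
      rw [hTU, Finset.mul_sum]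
      exact Finset.sum_congr rfl fun l _ => by ring
    simp_rw [e1]
    have e2 : (∑ a, ∑ b, ∑ c, ∑ l, t l * (U i a * U l a) * (U j b * U l b) * (U k c * U l c)) =
        ∑ l, t l * (∑ a, U i a * U l a) * (∑ b, U j b * U l b) * (∑ c, U k c * U l c) := by
      have : ∀ l, t l * (∑ a, U i a * U l a) * (∑ b, U j b * U l b) * (∑ c, U k c * U l c) =
          ∑ a, ∑ b, ∑ c, t l * (U i a * U l a) * (U j b * U l b) * (U k c * U l c) :=
        fun l => sum3 _ _ _ _
      simp_rw [this]
      have s1 : ∀ a b, (∑ c, ∑ l, t l * (U i a * U l a) * (U j b * U l b) * (U k c * U l c)) =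
          ∑ l, ∑ c, t l * (U i a * U l a) * (U j b * U l b) * (U k c * U l c) :=
        fun a b => Finset.sum_comm
      simp_rw [s1]
      have s2 : ∀ a, (∑ b, ∑ l, ∑ c, t l * (U i a * U l a) * (U j b * U l b) * (U k c * U l c)) =
          ∑ l, ∑ b, ∑ c, t l * (U i a * U l a) * (U j b * U l b) * (U k c * U l c) :=
        fun a => Finset.sum_comm
      simp_rw [s2]
      exact Finset.sum_comm
    rw [e2]
    simp_rw [orth]
    by_cases hij : i = j
    · subst hij
      by_cases hik : i = k
      · subst hik
        simp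
      · rw [if_neg (by rintro ⟨_, h⟩; exact hik h)]
        refine Finset.sum_eq_zero fun l _ => ?_
        by_cases h : i = l
        · subst h; rw [if_neg (fun h : k = i => hik h.symm)]; ring
        · rw [if_neg h]; ring
    · rw [if_neg (by rintro ⟨h, _⟩; exact hij h)]
      refine Finset.sum_eq_zero fun l _ => ?_
      by_cases h : i = l
      · subst h; rw [if_neg (fun h : j = i => hij h.symm)]; ring
      · rw [if_neg h]; ring
  -- `t i ^ 2 = 4`
  have ht : ∀ i, t i ^ 2 = 4 := by
    intro i
    have h1 : ∀ a b, ∑ j, ∑ k, T a j k * T b j k = if a = b then 4 else 0 := by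
      intro a b
      have h := htr a b
      rw [Matrix.trace] at h
      rw [← h]
      refine Finset.sum_congr rfl fun j _ => ?_
      rw [Matrix.diag_apply, Matrix.mul_apply]
      refine Finset.sum_congr rfl fun k _ => ?_
      simp only [slice, Matrix.of_apply]
      rw [hT.2 b j k]
    have h2 : ∀ a b, ∑ j, ∑ k, T a j k * T b j k = ∑ l, t l ^ 2 * U l a * U l b := by
      intro a b
      have e1 : ∀ j k, T a j k * T b j k =
          ∑ l, ∑ m, (t l * U l a * t m * U m b) * (U l j * U m j) * (U l k * U m k) := by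
        intro j k
        rw [hTU a j k, hTU b j k, Finset.sum_mul_sum]
        exact Finset.sum_congr rfl fun l _ => Finset.sum_congr rfl fun m _ => by ring
      simp_rw [e1]
      have e2 : (∑ j, ∑ k, ∑ l, ∑ m,
          (t l * U l a * t m * U m b) * (U l j * U m j) * (U l k * U m k)) =
          ∑ l, ∑ m, (t l * U l a * t m * U m b) * (∑ j, U l j * U m j) *
            (∑ k, U l k * U m k) := by
        have : ∀ l m, (t l * U l a * t m * U m b) * (∑ j, U l j * U m j) *
            (∑ k, U l k * U m k) =
            ∑ j, ∑ k, (t l * U l a * t m * U m b) * (U l j * U m j) * (U l k * U m k) :=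
          fun l m => sum2 _ _ _
        simp_rw [this]
        rw [Finset.sum_congr rfl fun j _ => Finset.sum_comm]
        rw [Finset.sum_comm]
        refine Finset.sum_congr rfl fun l _ => ?_
        rw [Finset.sum_congr rfl fun j _ => Finset.sum_comm]
        rw [Finset.sum_comm]
      rw [e2]
      simp_rw [orth]
      refine Finset.sum_congr rfl fun l _ => ?_
      rw [Finset.sum_eq_single l]
      · rw [if_pos rfl]; ring
      · intro m _ hm
        rw [if_neg (Ne.symm hm)]; ring
      · simp
    have h3 : ∑ a, ∑ b, U i a * U i b * (∑ l, t l ^ 2 * U l a * U l b) = 4 := by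
      have : ∀ a b, U i a * U i b * (∑ l, t l ^ 2 * U l a * U l b) =
          if a = b then 4 * (U i a * U i a) else 0 := by
        intro a b
        rw [← h2, h1]
        by_cases h : a = b
        · subst h; simp; ring
        · simp [h]
      simp_rw [this]
      simp only [Finset.sum_ite_eq, Finset.mem_univ, if_true]
      rw [← Finset.mul_sum, orth]
      simp
    have h4 : ∑ a, ∑ b, U i a * U i b * (∑ l, t l ^ 2 * U l a * U l b) = t i ^ 2 := by
      have e1 : ∀ a b, U i a * U i b * (∑ l, t l ^ 2 * U l a * U l b) =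
          ∑ l, t l ^ 2 * (U i a * U l a) * (U i b * U l b) := by
        intro a b
        rw [Finset.mul_sum]
        exact Finset.sum_congr rfl fun l _ => by ring
      simp_rw [e1]
      have e2 : (∑ a, ∑ b, ∑ l, t l ^ 2 * (U i a * U l a) * (U i b * U l b)) =
          ∑ l, t l ^ 2 * (∑ a, U i a * U l a) * (∑ b, U i b * U l b) := by
        have : ∀ l, t l ^ 2 * (∑ a, U i a * U l a) * (∑ b, U i b * U l b) =
            ∑ a, ∑ b, t l ^ 2 * (U i a * U l a) * (U i b * U l b) :=
          fun l => sum2 _ _ _
        simp_rw [this]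
        rw [Finset.sum_congr rfl fun j _ => Finset.sum_comm]
        rw [Finset.sum_comm]
      rw [e2]
      simp_rw [orth]
      rw [Finset.sum_eq_single i]
      · simp
      · intro m _ hm
        rw [if_neg (Ne.symm hm)]; ring
      · simp
    rw [← h4, h3]
  -- signs
  set s : Fin n → ℝ := fun i => t i / 2 with hs
  have hs2 : ∀ i, s i * s i = 1 := fun i => by
    rw [hs]; simp only
    have := ht i
    nlinarith
  refine ⟨Matrix.of fun i a => s i * U i a, ?_, ?_⟩
  · ext i j
    rw [Matrix.mul_apply, Matrix.one_apply]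
    have : ∀ a, (Matrix.of fun i a => s i * U i a : Mat n) i a *
        (Matrix.of fun i a => s i * U i a : Mat n)ᵀ a j = s i * s j * (U i a * U j a) := by
      intro a
      simp only [Matrix.transpose_apply, Matrix.of_apply]
      ring
    simp_rw [this]
    rw [← Finset.mul_sum, orth]
    by_cases h : i = j
    · subst h; simp [hs2]
    · simp [h]
  · intro i j k
    have : frT (Matrix.of fun i a => s i * U i a : Mat n) T i j k =
        s i * s j * s k * ∑ a, ∑ b, ∑ c, U i a * U j b * U k c * T a b c := by
      unfold frT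
      simp only [Matrix.of_apply, Finset.mul_sum]
      refine Finset.sum_congr rfl fun a _ => Finset.sum_congr rfl fun b _ =>
        Finset.sum_congr rfl fun c _ => by ring
    rw [this, hfr]
    by_cases h : i = j ∧ j = k
    · obtain ⟨h1, h2⟩ := h
      subst h1; subst h2
      rw [if_pos ⟨rfl, rfl⟩, if_pos ⟨rfl, rfl⟩, hs2]
      rw [hs]; simp only
      have := ht i
      nlinarith
    · rw [if_neg h, if_neg h, mul_zero]

end Vale.Agent.P254.H54
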