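import Vale.Agent.P254.H54.OneD

/-! Block E4 (helper54): tails of a finite measure on the line. -/

open MeasureTheory Set Filter Topology

namespace Vale.Agent.P254.H54

/-- signed indicator of the interval between `-1` and `u` -/
noncomputable def ker (u r : ℝ) : ℝ := (if r ≤ u then 1 else 0) - (if r < -1 then 1 else 0)

lemma ker_of_ge {u : ℝ} (hu : -1 ≤ u) (r : ℝ) :
    ker u r = (Icc (-1) u).indicator (fun _ => (1 : ℝ)) r := by
  unfold ker
  by_cases h1 : r < -1
  · rw [if_pos h1, if_pos (by linarith), indicator_of_notMem (fun h => by linarith [h.1])]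
    norm_num
  · rw [if_neg h1]
    by_cases h2 : r ≤ u
    · rw [if_pos h2, indicator_of_mem (show r ∈ Icc (-1) u from ⟨not_lt.mp h1, h2⟩)]; norm_num
    · rw [if_neg h2, indicator_of_notMem (fun h => h2 h.2)]; norm_num

lemma ker_of_lt {u : ℝ} (hu : u < -1) (r : ℝ) :
    ker u r = -(Ioo u (-1)).indicator (fun _ => (1 : ℝ)) r := by
  unfold ker
  by_cases h1 : r < -1
  · rw [if_pos h1]
    by_cases h2 : r ≤ u
    · rw [if_pos h2, indicator_of_notMem (fun h => by linarith [h.1])]; norm_num
    · rw [if_neg h2, indicator_of_mem (show r ∈ Ioo u (-1) from ⟨not_le.mp h2, h1⟩)]; norm_num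
  · rw [if_neg h1, if_neg (by intro h; exact h1 (by linarith)),
      indicator_of_notMem (fun h => h1 h.2)]
    norm_num

lemma integral_ker (j : ℕ) (u : ℝ) :
    ∫ r, r ^ j * ker u r = (u ^ (j + 1) - (-1) ^ (j + 1)) / (j + 1) := by
  by_cases hu : -1 ≤ u
  · have h1 : (fun r : ℝ => r ^ j * ker u r) = (Icc (-1) u).indicator (fun r => r ^ j) := by
      funext r
      rw [ker_of_ge hu]
      by_cases h : r ∈ Icc (-1) u
      · rw [indicator_of_mem h, indicator_of_mem h, mul_one]
      · rw [indicator_of_notMem h, indicator_of_notMem h, mul_zero]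
    rw [h1, integral_indicator measurableSet_Icc, integral_Icc_eq_integral_Ioc,
      ← intervalIntegral.integral_of_le hu, integral_pow]
  · have hu' : u < -1 := not_le.mp hu
    have h1 : (fun r : ℝ => r ^ j * ker u r) = fun r => -(Ioo u (-1)).indicator (fun r => r ^ j) r := by
      funext r
      rw [ker_of_lt hu']
      by_cases h : r ∈ Ioo u (-1)
      · rw [indicator_of_mem h, indicator_of_mem h]; ring
      · rw [indicator_of_notMem h, indicator_of_notMem h]; ring
    rw [h1, integral_neg, integral_indicator measurableSet_Ioo, ← integral_Ioc_eq_integral_Ioo,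
      ← intervalIntegral.integral_of_le hu'.le, integral_pow]
    ring

lemma abs_ker_le (u r : ℝ) (j : ℕ) :
    |r ^ j * ker u r| ≤ (Icc (-(1 + |u|)) (1 + |u|)).indicator (fun _ => (1 + |u|) ^ j) r := by
  have hk : |ker u r| ≤ 1 := by
    by_cases hu : -1 ≤ u
    · rw [ker_of_ge hu]
      by_cases h : r ∈ Icc (-1) u
      · rw [indicator_of_mem h]; norm_num
      · rw [indicator_of_notMem h]; norm_num
    · rw [ker_of_lt (not_le.mp hu)]
      by_cases h : r ∈ Ioo u (-1)
      · rw [indicator_of_mem h]; norm_num
      · rw [indicator_of_notMem h]; norm_num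
  have hz : r ∉ Icc (-(1 + |u|)) (1 + |u|) → ker u r = 0 := by
    intro hr
    by_cases hu : -1 ≤ u
    · rw [ker_of_ge hu, indicator_of_notMem]
      intro h
      exact hr ⟨by linarith [h.1, abs_nonneg u], by linarith [h.2, le_abs_self u]⟩
    · rw [ker_of_lt (not_le.mp hu), indicator_of_notMem, neg_zero]
      intro h
      exact hr ⟨by linarith [h.1, neg_abs_le u], by linarith [h.2, abs_nonneg u]⟩
  by_cases hr : r ∈ Icc (-(1 + |u|)) (1 + |u|)
  · rw [indicator_of_mem hr, abs_mul, abs_pow]
    have h1 : |r| ≤ 1 + |u| := abs_le.mpr hr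
    calc |r| ^ j * |ker u r| ≤ (1 + |u|) ^ j * 1 :=
          mul_le_mul (pow_le_pow_left₀ (abs_nonneg _) h1 j) hk (abs_nonneg _) (by positivity)
      _ = _ := mul_one _
  · rw [indicator_of_notMem hr, hz hr]; simp

lemma measurable_ker : Measurable (fun p : ℝ × ℝ => ker p.1 p.2) := by
  unfold ker
  refine Measurable.sub ?_ ?_
  · exact Measurable.ite (measurableSet_le measurable_snd measurable_fst) measurable_const
      measurable_const
  · exact Measurable.ite (measurableSet_lt measurable_snd measurable_const) measurable_const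
      measurable_const

/-- Fubini for tails -/
theorem tail_moment (ν : Measure ℝ) [IsFiniteMeasure ν] (j : ℕ)
    (h : Integrable (fun u : ℝ => |u| ^ (j + 1)) ν) :
    Integrable (fun r : ℝ => r ^ j * (ν.real (Ici r) - ν.real univ * if r < -1 then 1 else 0)) ∧
    ∫ r : ℝ, r ^ j * (ν.real (Ici r) - ν.real univ * if r < -1 then 1 else 0) =
      ∫ u, (u ^ (j + 1) - (-1) ^ (j + 1)) / (j + 1) ∂ν := by
  -- the product function
  set F : ℝ × ℝ → ℝ := fun p => p.2 ^ j * ker p.1 p.2 with hF
  have hFm : Measurable F := (measurable_snd.pow_const j).mul measurable_ker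
  have hsec : ∀ u, Integrable (fun r => F (u, r)) := by
    intro u
    have h1 : Integrable (fun r : ℝ => (Icc (-(1 + |u|)) (1 + |u|)).indicator
        (fun _ => (1 + |u|) ^ j) r) := by
      rw [integrable_indicator_iff measurableSet_Icc]
      exact integrableOn_const (by simp) (by simp)
    refine h1.mono' ((hFm.comp measurable_prodMk_left).aestronglyMeasurable) ?_
    exact Eventually.of_forall fun r => abs_ker_le u r j
  have hnorm : ∀ u, ∫ r, ‖F (u, r)‖ ≤ 2 * (2 ^ j * (1 + |u| ^ (j + 1))) := by
    intro u
    have h1 : ∫ r, ‖F (u, r)‖ ≤ ∫ r, (Icc (-(1 + |u|)) (1 + |u|)).indicator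
        (fun _ => (1 + |u|) ^ j) r := by
      refine integral_mono (hsec u).norm ?_ fun r => abs_ker_le u r j
      rw [integrable_indicator_iff measurableSet_Icc]
      exact integrableOn_const (by simp) (by simp)
    rw [integral_indicator measurableSet_Icc, setIntegral_const] at h1
    have h2 : (volume.real (Icc (-(1 + |u|)) (1 + |u|))) = 2 * (1 + |u|) := by
      rw [Real.volume_real_Icc_of_le (by linarith [abs_nonneg u])]
      ring
    rw [h2, smul_eq_mul] at h1
    have h3 : (1 + |u|) ^ (j + 1) ≤ 2 ^ j * (1 ^ (j + 1) + |u| ^ (j + 1)) := by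
      have := add_pow_le (zero_le_one) (abs_nonneg u) (j + 1)
      simpa using this
    calc _ ≤ 2 * (1 + |u|) * (1 + |u|) ^ j := h1
      _ = 2 * (1 + |u|) ^ (j + 1) := by ring
      _ ≤ _ := by
        rw [one_pow] at h3
        linarith
  have hint : Integrable F (ν.prod volume) := by
    rw [integrable_prod_iff hFm.aestronglyMeasurable]
    refine ⟨Eventually.of_forall hsec, ?_⟩
    have h1 : Integrable (fun u : ℝ => 2 * (2 ^ j * (1 + |u| ^ (j + 1)))) ν :=
      (((integrable_const 1).add h).const_mul _).const_mul _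
    refine h1.mono' ?_ (Eventually.of_forall fun u => ?_)
    · exact (hFm.norm.stronglyMeasurable.integral_prod_right').aestronglyMeasurable
    · rw [Real.norm_of_nonneg (integral_nonneg fun _ => norm_nonneg _)]
      exact hnorm u
  have hin : ∀ r, ∫ u, F (u, r) ∂ν =
      r ^ j * (ν.real (Ici r) - ν.real univ * if r < -1 then 1 else 0) := by
    intro r
    have h1 : ∀ u, F (u, r) = r ^ j * ((Ici r).indicator (fun _ => (1 : ℝ)) u -
        (if r < -1 then 1 else 0)) := by
      intro u
      rw [hF]
      simp only [ker]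
      congr 2
    simp_rw [h1]
    rw [integral_const_mul, integral_sub ((integrable_const (1 : ℝ)).indicator measurableSet_Ici)
      (integrable_const _), integral_indicator measurableSet_Ici, setIntegral_const, integral_const]
    simp
  constructor
  · have h1 := hint.integral_prod_right
    refine h1.congr (Eventually.of_forall fun r => ?_)
    exact hin r
  · have h1 := integral_prod_symm F hint
    have h2 := integral_prod F hint
    have h3 : (∫ r, ∫ u, F (u, r) ∂ν) = ∫ u, ∫ r, F (u, r) ∂volume ∂ν := by
      rw [← h1, ← h2]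
    simp_rw [hin] at h3
    rw [h3]
    refine integral_congr_ae (Eventually.of_forall fun u => ?_)
    exact integral_ker j u

lemma ae_notMem_fin {s : Set ℝ} (hs : s.Finite) : ∀ᵐ x : ℝ, x ∉ s := by
  rw [ae_iff]
  simpa using hs.measure_zero volume

/-- the rigidity of the tails -/
theorem tail_rigid {G : ℝ → ℝ} (h : LC G) (h1 : ∀ r, G r ≤ 1)
    (i : ∀ j ≤ 2, Integrable fun r : ℝ => r ^ j * (G r - if r < -1 then 1 else 0))
    (m0 : ∫ r : ℝ, r ^ 0 * (G r - if r < -1 then 1 else 0) = 1)
    (m1 : ∫ r : ℝ, r ^ 1 * (G r - if r < -1 then 1 else 0) = 0)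
    (m2 : ∫ r : ℝ, r ^ 2 * (G r - if r < -1 then 1 else 0) = 1) :
    ∀ᵐ r : ℝ, r < -1 → G r = 1 := by
  obtain ⟨gi, g0, g1, g2, g3⟩ := expD_moments
  set D : ℝ → ℝ := fun r => (G r - if r < -1 then 1 else 0) - expD r with hD
  -- linear functionals of `D`
  have hlin : ∀ c0 c1 c2 : ℝ, Integrable (fun r => D r * (c0 + c1 * r + c2 * r ^ 2)) ∧
      ∫ r, D r * (c0 + c1 * r + c2 * r ^ 2) = 0 := by
    intro c0 c1 c2
    have a := fun c0 c1 c2 => integral_lin4 (i 0 (by norm_num)) (i 1 (by norm_num))
      (i 2 (by norm_num)) (i 0 (by norm_num)) c0 c1 c2 0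
    have b := fun c0 c1 c2 => integral_lin4 (gi 0 (by norm_num)) (gi 1 (by norm_num))
      (gi 2 (by norm_num)) (gi 0 (by norm_num)) c0 c1 c2 0
    have a1 := a c0 c1 c2
    have b1 := b c0 c1 c2
    have e : (fun r => D r * (c0 + c1 * r + c2 * r ^ 2)) = fun r =>
        (c0 * (r ^ 0 * (G r - if r < -1 then 1 else 0)) + c1 * (r ^ 1 * (G r - if r < -1 then 1 else 0))
          + c2 * (r ^ 2 * (G r - if r < -1 then 1 else 0))
          + 0 * (r ^ 0 * (G r - if r < -1 then 1 else 0))) -
        (c0 * (r ^ 0 * expD r) + c1 * (r ^ 1 * expD r) + c2 * (r ^ 2 * expD r)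
          + 0 * (r ^ 0 * expD r)) := by
      funext r
      rw [hD]
      ring
    rw [e]
    refine ⟨a1.1.sub b1.1, ?_⟩
    rw [integral_sub a1.1 b1.1, a1.2, b1.2, m0, m1, m2, g0, g1, g2]
    ring
  set I : Set ℝ := {x : ℝ | -1 ≤ x ∧ expD x < G x} with hI
  have hoc : OrdConnected I := ordConn h
  have hout : ∀ x, x ∉ I → D x ≤ 0 := by
    intro x hx
    by_cases hx1 : x < -1
    · rw [hD]; simp only
      rw [if_pos hx1, expD_of_lt hx1]
      linarith [h1 x]
    · have hx' : -1 ≤ x := not_lt.mp hx1
      rw [hD]; simp only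
      rw [if_neg hx1]
      by_contra hc
      exact hx ⟨hx', by linarith⟩
  have hin : ∀ x, x ∈ I → 0 ≤ D x := fun x hx => by
    rw [hD]; simp only
    rw [if_neg (not_lt.mpr hx.1)]
    linarith [hx.2]
  -- `D = 0` almost everywhere
  have hD0 : ∀ᵐ r : ℝ, D r = 0 := by
    rcases I.eq_empty_or_nonempty with he | hne
    · have hle : ∀ r, D r ≤ 0 := fun r => hout r (by rw [he]; simp)
      obtain ⟨a1, a2⟩ := hlin 1 0 0
      have e : (fun r => D r * (1 + 0 * r + 0 * r ^ 2)) = D := by funext r; ring
      rw [e] at a1 a2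
      have hz : ∫ r, -D r = 0 := by rw [integral_neg, a2, neg_zero]
      have := (integral_eq_zero_iff_of_nonneg (fun x => neg_nonneg.mpr (hle x)) a1.neg).mp hz
      filter_upwards [this] with r hr
      simpa using hr
    · have hbb : BddBelow I := ⟨-1, fun x hx => hx.1⟩
      set a := sInf I with ha
      have hlo : ∀ x, x < a → D x ≤ 0 := fun x hx =>
        hout x (fun hxI => absurd (csInf_le hbb hxI) (not_le.mpr hx))
      by_cases hba : BddAbove I
      · set b := sSup I with hb
        have hab : a ≤ b := by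
          obtain ⟨x, hx⟩ := hne
          exact (csInf_le hbb hx).trans (le_csSup hba hx)
        have hle : ∀ x, D x * ((x - a) * (x - b)) ≤ 0 := by
          intro x
          rcases lt_trichotomy x a with hxa | hxa | hxa
          · exact mul_nonpos_of_nonpos_of_nonneg (hlo x hxa)
              (mul_nonneg_of_nonpos_of_nonpos (by linarith) (by linarith))
          · rw [hxa]; simp
          · rcases lt_trichotomy x b with hxb | hxb | hxb
            · have hxI : x ∈ I := by
                obtain ⟨y, hy, hyx⟩ := exists_lt_of_csInf_lt hne hxa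
                obtain ⟨z, hz, hxz⟩ := exists_lt_of_lt_csSup hne hxb
                exact hoc.out hy hz ⟨hyx.le, hxz.le⟩
              exact mul_nonpos_of_nonneg_of_nonpos (hin x hxI)
                (mul_nonpos_of_nonneg_of_nonpos (by linarith) (by linarith))
            · rw [hxb]; simp
            · exact mul_nonpos_of_nonpos_of_nonneg
                (hout x (fun hxI => absurd (le_csSup hba hxI) (not_le.mpr hxb)))
                (mul_nonneg (by linarith) (by linarith))
        obtain ⟨a1, a2⟩ := hlin (a * b) (-(a + b)) 1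
        have e : (fun r => D r * (a * b + -(a + b) * r + 1 * r ^ 2)) =
            fun r => D r * ((r - a) * (r - b)) := by funext r; ring
        rw [e] at a1 a2
        have hz : ∫ r, -(D r * ((r - a) * (r - b))) = 0 := by rw [integral_neg, a2, neg_zero]
        have := (integral_eq_zero_iff_of_nonneg (fun x => neg_nonneg.mpr (hle x)) a1.neg).mp hz
        have h5 : ∀ᵐ x : ℝ, x ∉ ({a, b} : Set ℝ) := ae_notMem_fin (Set.toFinite _)
        filter_upwards [this, h5] with r hr hr2
        have h6 : D r * ((r - a) * (r - b)) = 0 := by simpa using hr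
        rcases mul_eq_zero.mp h6 with h7 | h7
        · exact h7
        · exfalso
          rcases mul_eq_zero.mp h7 with h8 | h8
          · exact hr2 (by left; linarith)
          · exact hr2 (by right; rw [mem_singleton_iff]; linarith)
      · have hge : ∀ x, 0 ≤ D x * (x - a) := by
          intro x
          rcases lt_trichotomy x a with hxa | hxa | hxa
          · exact mul_nonneg_of_nonpos_of_nonpos (hlo x hxa) (by linarith)
          · rw [hxa]; simp
          · have hxI : x ∈ I := by
              obtain ⟨y, hy, hyx⟩ := exists_lt_of_csInf_lt hne hxa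
              rw [bddAbove_def] at hba
              push Not at hba
              obtain ⟨z, hz, hxz⟩ := hba x
              exact hoc.out hy hz ⟨hyx.le, hxz.le⟩
            exact mul_nonneg (hin x hxI) (by linarith)
        obtain ⟨a1, a2⟩ := hlin (-a) 1 0
        have e : (fun r => D r * (-a + 1 * r + 0 * r ^ 2)) = fun r => D r * (r - a) := by
          funext r; ring
        rw [e] at a1 a2
        have := (integral_eq_zero_iff_of_nonneg (fun x => hge x) a1).mp a2
        have h5 : ∀ᵐ x : ℝ, x ∉ ({a} : Set ℝ) := ae_notMem_fin (Set.toFinite _)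
        filter_upwards [this, h5] with r hr hr2
        have h6 : D r * (r - a) = 0 := by simpa using hr
        rcases mul_eq_zero.mp h6 with h7 | h7
        · exact h7
        · exfalso
          exact hr2 (by rw [mem_singleton_iff]; linarith)
  filter_upwards [hD0] with r hr hr1
  have h2 : (G r - if r < -1 then 1 else 0) - expD r = 0 := hr
  rw [if_pos hr1, expD_of_lt hr1] at h2
  linarith

end Vale.Agent.P254.H54
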