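import Vale.Agent.P254.H657.Iface
import Vale.Agent.P254.H54.Tail

/-! Block E4 of the equality case (helper54). -/

open MeasureTheory Set Filter Topology Matrix
open scoped ENNReal

namespace Vale.Agent.P254.H54

open Eq657 R304
open L (Mat Ten NN frT Vec)

variable {n : ℕ}

lemma pg_dot (e : Fin n → ℝ) (k : ℕ) : PolyGrowth (fun x : Fin n → ℝ => (e ⬝ᵥ x) ^ k) := by
  refine ⟨?_, (n * ‖e‖) ^ k, k, fun x => ?_⟩
  · apply Continuous.aestronglyMeasurable
    simp only [dotProduct]
    fun_prop
  · rw [abs_pow, ← mul_pow]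
    refine pow_le_pow_left₀ (abs_nonneg _) ?_ k
    refine (abs_dot_le' e x).trans ?_
    refine mul_le_mul_of_nonneg_left ?_ (by positivity)
    linarith [norm_nonneg x]

lemma good_adm {C : Set (Fin n → ℝ)} {c : Fin n → ℝ} {a b : ℝ} (h : Adm C c a b) :
    Good (limDens 0 c C) (Real.exp b) a :=
  good_limDens Matrix.PosSemidef.zero h.closed h.int h.ha h.dec

lemma limDens_zero (c : Fin n → ℝ) (C : Set (Fin n → ℝ)) (x : Fin n → ℝ) :
    limDens 0 c C x = C.indicator (fun x => Real.exp (c ⬝ᵥ x)) x := by
  unfold limDens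
  by_cases hx : x ∈ C
  · rw [indicator_of_mem hx, indicator_of_mem hx]
    simp [tilt]
  · rw [indicator_of_notMem hx, indicator_of_notMem hx]

/-- the normalised measure -/
noncomputable def muC (c : Fin n → ℝ) (C : Set (Fin n → ℝ)) : Measure (Fin n → ℝ) :=
  volume.withDensity fun x => ENNReal.ofReal (limDens 0 c C x / ∫ y, limDens 0 c C y)

/-- law of `⟨e, x⟩` -/
noncomputable def nuC (c : Fin n → ℝ) (C : Set (Fin n → ℝ)) (e : Fin n → ℝ) : Measure ℝ :=
  (muC c C).map fun x => e ⬝ᵥ x

lemma measurable_dot (e : Fin n → ℝ) : Measurable fun x : Fin n → ℝ => e ⬝ᵥ x := by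
  apply Continuous.measurable
  simp only [dotProduct]
  fun_prop

lemma measurable_limDens {C : Set (Fin n → ℝ)} (hC : IsClosed C) (c : Fin n → ℝ) :
    Measurable (limDens 0 c C) :=
  (continuous_tilt 0 c).measurable.indicator hC.measurableSet

variable {C : Set (Fin n → ℝ)} {c : Fin n → ℝ} {a b : ℝ}

lemma integral_muC (h : Adm C c a b) (φ : (Fin n → ℝ) → ℝ) :
    ∫ x, φ x ∂(muC c C) = Ef (limDens 0 c C) φ := by
  have hg := good_adm h
  have hZ := hg.mass_pos
  unfold muC
  rw [integral_withDensity_eq_integral_toReal_smul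
    ((measurable_limDens h.closed c).div_const _).ennreal_ofReal
    (Eventually.of_forall fun x => ENNReal.ofReal_lt_top)]
  unfold Ef
  rw [← integral_div]
  refine integral_congr_ae (Eventually.of_forall fun x => ?_)
  simp only
  rw [ENNReal.toReal_ofReal (div_nonneg (hg.nn x) hZ.le), smul_eq_mul]
  ring

lemma integrable_muC (h : Adm C c a b) {φ : (Fin n → ℝ) → ℝ} (hφ : PolyGrowth φ) :
    Integrable φ (muC c C) := by
  have hg := good_adm h
  have hZ := hg.mass_pos
  unfold muC
  rw [integrable_withDensity_iff_integrable_smul'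
    ((measurable_limDens h.closed c).div_const _).ennreal_ofReal
    (Eventually.of_forall fun x => ENNReal.ofReal_lt_top)]
  refine ((hg.int hφ).div_const (∫ y, limDens 0 c C y)).congr (Eventually.of_forall fun x => ?_)
  simp only
  rw [ENNReal.toReal_ofReal (div_nonneg (hg.nn x) hZ.le), smul_eq_mul]
  ring

lemma prob_muC (h : Adm C c a b) : IsProbabilityMeasure (muC c C) := by
  have hg := good_adm h
  have hZ := hg.mass_pos
  refine ⟨?_⟩
  unfold muC
  rw [withDensity_apply _ MeasurableSet.univ, Measure.restrict_univ,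
    ← ofReal_integral_eq_lintegral_ofReal (hg.int1.div_const _)
      (Eventually.of_forall fun x => div_nonneg (hg.nn x) hZ.le), integral_div,
    div_self hZ.ne', ENNReal.ofReal_one]

lemma nuC_Ici (c : Fin n → ℝ) (_hC : IsClosed C) (e : Fin n → ℝ) (r : ℝ) :
    nuC c C e (Ici r) = ∫⁻ x, {x : Fin n → ℝ | r ≤ e ⬝ᵥ x}.indicator
      (fun x => ENNReal.ofReal (limDens 0 c C x / ∫ y, limDens 0 c C y)) x := by
  have hm : MeasurableSet {x : Fin n → ℝ | r ≤ e ⬝ᵥ x} :=
    measurableSet_le measurable_const (measurable_dot e)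
  unfold nuC
  rw [Measure.map_apply (measurable_dot e) measurableSet_Ici, lintegral_indicator hm]
  unfold muC
  rw [withDensity_apply _ ((measurable_dot e) measurableSet_Ici)]
  rfl

/-- the tail is log-concave -/
lemma lc_tail (h : Adm C c a b) (e : Fin n → ℝ) : LC fun r => (nuC c C e).real (Ici r) := by
  have hg := good_adm h
  have hZ := hg.mass_pos
  have := prob_muC h
  have hpn : IsProbabilityMeasure (nuC c C e) :=
    Measure.isProbabilityMeasure_map (measurable_dot e).aemeasurable
  refine ⟨fun r => measureReal_nonneg, fun x y t ht => ?_⟩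
  simp only
  rcases ht.1.eq_or_lt with h0 | h0
  · rw [← h0]; simp
  rcases ht.2.eq_or_lt with h1 | h1
  · rw [h1]; simp
  have h1' : 0 < 1 - t := by linarith
  set Z := ∫ y, limDens 0 c C y with hZd
  have hmeas : ∀ r : ℝ, Measurable ({x : Fin n → ℝ | r ≤ e ⬝ᵥ x}.indicator
      (fun x => ENNReal.ofReal (limDens 0 c C x / Z))) := fun r =>
    ((measurable_limDens h.closed c).div_const _).ennreal_ofReal.indicator
      (measurableSet_le measurable_const (measurable_dot e))
  have key := P150.F.PL.prekopa_leindler (n := n) (s := t) h0 h1 (hmeas x) (hmeas y)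
    (hmeas ((1 - t) * x + t * y)) (by
      intro p q
      by_cases hp : p ∈ {z : Fin n → ℝ | x ≤ e ⬝ᵥ z}
      · by_cases hq : q ∈ {z : Fin n → ℝ | y ≤ e ⬝ᵥ z}
        · have hpq : (1 - t) • p + t • q ∈ {z : Fin n → ℝ | (1 - t) * x + t * y ≤ e ⬝ᵥ z} := by
            rw [mem_ofPred_eq] at hp hq ⊢
            rw [dotProduct_add, dotProduct_smul, dotProduct_smul, smul_eq_mul, smul_eq_mul]
            have := mul_le_mul_of_nonneg_left hp h1'.le
            have := mul_le_mul_of_nonneg_left hq h0.le
            linarith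
          rw [indicator_of_mem hp, indicator_of_mem hq, indicator_of_mem hpq]
          by_cases hpC : p ∈ C
          · by_cases hqC : q ∈ C
            · have hz : (1 - t) • p + t • q ∈ C := h.convex hpC hqC h1'.le h0.le (by ring)
              rw [limDens_zero, limDens_zero, limDens_zero, indicator_of_mem hpC,
                indicator_of_mem hqC, indicator_of_mem hz,
                ENNReal.ofReal_rpow_of_nonneg (by positivity) h1'.le,
                ENNReal.ofReal_rpow_of_nonneg (by positivity) h0.le,
                ← ENNReal.ofReal_mul (by positivity)]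
              refine ENNReal.ofReal_le_ofReal (le_of_eq ?_)
              rw [Real.div_rpow (by positivity) hZ.le, Real.div_rpow (by positivity) hZ.le,
                ← Real.exp_mul, ← Real.exp_mul, div_mul_div_comm, ← Real.exp_add,
                ← Real.rpow_add hZ, sub_add_cancel, Real.rpow_one, dotProduct_add,
                dotProduct_smul, dotProduct_smul, smul_eq_mul, smul_eq_mul]
              congr 2
              ring
            · have e1 : limDens 0 c C q = 0 := by
                unfold limDens
                rw [indicator_of_notMem hqC]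
              rw [e1, zero_div, ENNReal.ofReal_zero, ENNReal.zero_rpow_of_pos h0, mul_zero]
              exact bot_le
          · have e1 : limDens 0 c C p = 0 := by
              unfold limDens
              rw [indicator_of_notMem hpC]
            rw [e1, zero_div, ENNReal.ofReal_zero, ENNReal.zero_rpow_of_pos h1', zero_mul]
            exact bot_le
        · rw [indicator_of_notMem hq, ENNReal.zero_rpow_of_pos h0, mul_zero]
          exact bot_le
      · rw [indicator_of_notMem hp, ENNReal.zero_rpow_of_pos h1', zero_mul]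
        exact bot_le)
  rw [← nuC_Ici c h.closed e x, ← nuC_Ici c h.closed e y,
    ← nuC_Ici c h.closed e ((1 - t) * x + t * y)] at key
  have key2 := ENNReal.toReal_mono (measure_ne_top _ _) key
  rw [ENNReal.toReal_mul, ← ENNReal.toReal_rpow, ← ENNReal.toReal_rpow] at key2
  exact key2

/-- **Block E4.** -/
theorem E4 : StmtE4 := by
  intro n C c a b h e k1 k2 k3 x0 hx0
  have hg := good_adm h
  have hZ := hg.mass_pos
  have hpm := prob_muC h
  set ν := nuC c C e with hν
  have hpn : IsProbabilityMeasure ν :=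
    Measure.isProbabilityMeasure_map (measurable_dot e).aemeasurable
  have hmap : ∀ φ : ℝ → ℝ, Continuous φ → ∫ u, φ u ∂ν = Ef (limDens 0 c C) (fun x => φ (e ⬝ᵥ x)) := by
    intro φ hφ
    rw [hν, nuC, integral_map (measurable_dot e).aemeasurable hφ.aestronglyMeasurable,
      integral_muC h]
  have hint : ∀ k : ℕ, Integrable (fun u : ℝ => u ^ k) ν := by
    intro k
    rw [hν, nuC, integrable_map_measure (by fun_prop) (measurable_dot e).aemeasurable]
    exact integrable_muC h (pg_dot e k)
  have hint' : ∀ k : ℕ, Integrable (fun u : ℝ => |u| ^ k) ν := by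
    intro k
    refine (hint k).norm.congr (Eventually.of_forall fun u => ?_)
    simp
  have huniv : ν.real univ = 1 := probReal_univ
  have hT := fun j => tail_moment ν j (hint' (j + 1))
  simp only [huniv, one_mul] at hT
  have e1 : ∫ u, u ^ 1 ∂ν = 0 := by
    rw [hmap (fun u => u ^ 1) (by fun_prop)]
    simpa using k1
  have e2 : ∫ u, u ^ 2 ∂ν = 1 := by
    rw [hmap (fun u => u ^ 2) (by fun_prop)]
    exact k2
  have e3 : ∫ u, u ^ 3 ∂ν = 2 := by
    rw [hmap (fun u => u ^ 3) (by fun_prop)]
    exact k3
  have hM : ∀ j : ℕ, ∫ u, (u ^ (j + 1) - (-1) ^ (j + 1)) / ((j : ℝ) + 1) ∂ν =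
      ((∫ u, u ^ (j + 1) ∂ν) - (-1) ^ (j + 1)) / ((j : ℝ) + 1) := by
    intro j
    rw [integral_div, integral_sub (hint (j + 1)) (integrable_const _), integral_const]
    simp
  have hrig := tail_rigid (lc_tail h e) (fun r => by
      rw [← huniv]; exact measureReal_mono (subset_univ _))
    (fun j _ => (hT j).1)
    (by
      have := (hT 0).2
      rw [hM, e1] at this
      rw [this]; norm_num)
    (by
      have := (hT 1).2
      rw [hM, e2] at this
      rw [this]; norm_num)
    (by
      have := (hT 2).2
      rw [hM, e3] at this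
      rw [this]; norm_num)
  -- conclusion
  by_contra hcon
  push Not at hcon
  obtain ⟨x1, hx1⟩ := h.int
  -- a point of the interior below `-1`
  have hex : ∃ x2 ∈ interior C, e ⬝ᵥ x2 < -1 := by
    have hcont : Tendsto (fun l : ℝ => (1 - l) * (e ⬝ᵥ x0) + l * (e ⬝ᵥ x1)) (𝓝[>] 0)
        (𝓝 (e ⬝ᵥ x0)) := by
      have : Tendsto (fun l : ℝ => (1 - l) * (e ⬝ᵥ x0) + l * (e ⬝ᵥ x1)) (𝓝 0)
          (𝓝 ((1 - 0) * (e ⬝ᵥ x0) + 0 * (e ⬝ᵥ x1))) := by
        apply Continuous.tendsto
        fun_prop
      simp only [sub_zero, one_mul, zero_mul, add_zero] at this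
      exact this.mono_left nhdsWithin_le_nhds
    have h1 := hcont.eventually (gt_mem_nhds hcon)
    have h2 : ∀ᶠ l : ℝ in 𝓝[>] 0, l < 1 := by
      have := Ioo_mem_nhdsGT (zero_lt_one' ℝ)
      filter_upwards [this] with l hl using hl.2
    have h3 : ∀ᶠ l : ℝ in 𝓝[>] 0, 0 < l := self_mem_nhdsWithin
    obtain ⟨l, hl1, hl2, hl3⟩ := (h1.and (h2.and h3)).exists
    refine ⟨(1 - l) • x0 + l • x1, ?_, ?_⟩
    · exact h.convex.combo_closure_interior_mem_interior (subset_closure hx0) hx1 (by linarith)
        hl3 (by ring)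
    · rw [dotProduct_add, dotProduct_smul, dotProduct_smul, smul_eq_mul, smul_eq_mul]
      exact hl1
  obtain ⟨x2, hx2, hx2e⟩ := hex
  obtain ⟨r0, hr1, hr2⟩ := exists_between hx2e
  -- the mass below `r0` is positive
  have hopen : IsOpen (interior C ∩ {x : Fin n → ℝ | e ⬝ᵥ x < r0}) := by
    have hc : Continuous fun x : Fin n → ℝ => e ⬝ᵥ x := by
      simp only [dotProduct]
      fun_prop
    exact isOpen_interior.inter (isOpen_lt hc continuous_const)
  have hpos : 0 < muC c C (interior C ∩ {x : Fin n → ℝ | e ⬝ᵥ x < r0}) := by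
    rw [pos_iff_ne_zero]
    intro h0
    unfold muC at h0
    rw [withDensity_apply _ hopen.measurableSet, lintegral_eq_zero_iff
      ((measurable_limDens h.closed c).div_const _).ennreal_ofReal] at h0
    rw [Filter.EventuallyEq, ae_restrict_iff' hopen.measurableSet] at h0
    have h1 : volume (interior C ∩ {x : Fin n → ℝ | e ⬝ᵥ x < r0}) = 0 := by
      refine measure_mono_null (fun y hy => ?_) (ae_iff.mp h0)
      simp only [mem_ofPred_eq, Pi.zero_apply, ENNReal.ofReal_eq_zero, not_forall, not_le]
      refine ⟨hy, div_pos ?_ hZ⟩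
      rw [limDens_zero, indicator_of_mem (interior_subset hy.1)]
      exact Real.exp_pos _
    exact (hopen.measure_pos volume ⟨x2, hx2, hr1⟩).ne' h1
  -- so the tail is `< 1` on `(r0, -1)`
  have hlt : ∀ r, r0 < r → ν.real (Ici r) < 1 := by
    intro r hr
    have h1 : ν.real (Iio r) + ν.real (Ici r) = 1 := by
      rw [← huniv, ← measureReal_union (by
        rw [disjoint_left]
        intro u hu hu'
        exact absurd (mem_Ici.mp hu') (not_le.mpr (mem_Iio.mp hu))) measurableSet_Ici]
      congr 1
      exact Iio_union_Ici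
    have h2 : 0 < ν.real (Iio r) := by
      rw [measureReal_def, ENNReal.toReal_pos_iff]
      refine ⟨?_, measure_lt_top _ _⟩
      refine lt_of_lt_of_le hpos ?_
      rw [hν, nuC, Measure.map_apply (measurable_dot e) measurableSet_Iio]
      refine measure_mono fun y hy => ?_
      exact lt_trans hy.2 hr
    linarith
  have hvol : (volume : Measure ℝ) (Ioo r0 (-1)) ≠ 0 := by
    rw [Real.volume_Ioo]
    simp
    linarith
  apply hvol
  refine measure_mono_null (fun r hr => ?_) (ae_iff.mp hrig)
  simp only [mem_ofPred_eq, not_forall]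
  exact ⟨hr.2, (hlt r hr.1).ne⟩

end Vale.Agent.P254.H54
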