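import Vale.Agent.P254.H54.E4

/-! Block E5 of the equality case (helper54). -/

open MeasureTheory Set Filter Topology Matrix
open scoped ENNReal

namespace Vale.Agent.P254.H54

open Eq657 R304
open L (Mat Ten NN frT Vec)

variable {n : ℕ} {C : Set (Fin n → ℝ)} {c : Fin n → ℝ} {a b : ℝ}

lemma pg_dot1 (e : Fin n → ℝ) : PolyGrowth (fun x : Fin n → ℝ => e ⬝ᵥ x) := by
  simpa using pg_dot e 1

/-- mean zero in all directions -/
lemma Ef_dot (h : Adm C c a b) (hm : ∀ i, Ef (limDens 0 c C) (fun x => x i) = 0)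
    (u : Fin n → ℝ) : ∫ x, u ⬝ᵥ x ∂(muC c C) = 0 := by
  have hpm := prob_muC h
  have : ∀ x : Fin n → ℝ, u ⬝ᵥ x = ∑ i, u i * x i := fun x => rfl
  simp_rw [this]
  rw [integral_finsetSum _ fun i _ => (integrable_muC h (pg_coord i)).const_mul _]
  refine Finset.sum_eq_zero fun i _ => ?_
  rw [integral_const_mul, integral_muC h, hm, mul_zero]

lemma integral_expD : ∫ t : ℝ, expD t = 1 := by
  have := integral_pow_expD 0
  simpa using this

lemma integrable_expD : Integrable expD := by
  have := integrable_pow_expD 0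
  simpa using this

/-- the product density in the frame `O` -/
noncomputable def gO (O : Mat n) (x : Fin n → ℝ) : ℝ := ∏ i, expD ((O *ᵥ x) i)

lemma gO_nonneg (O : Mat n) (x : Fin n → ℝ) : 0 ≤ gO O x :=
  Finset.prod_nonneg fun i _ => expD_nonneg _

lemma gO_of_mem (O : Mat n) {x : Fin n → ℝ} (hx : ∀ i, -1 ≤ (O *ᵥ x) i) :
    gO O x = Real.exp (-∑ i, ((O *ᵥ x) i + 1)) := by
  unfold gO
  rw [← Finset.sum_neg_distrib, Real.exp_sum]
  exact Finset.prod_congr rfl fun i _ => expD_of_ge (hx i)

lemma gO_int {O : Mat n} (hO : O * Oᵀ = 1) : Integrable (gO O) ∧ ∫ x, gO O x = 1 := by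
  have hdet : |O.det| = 1 := by
    have h1 := congrArg Matrix.det hO
    rw [Matrix.det_mul, Matrix.det_transpose, Matrix.det_one] at h1
    have h2 : |O.det| * |O.det| = 1 := by rw [abs_mul_abs_self]; exact h1
    nlinarith [abs_nonneg O.det]
  have hdet0 : O.det ≠ 0 := by
    intro h
    rw [h, abs_zero] at hdet
    norm_num at hdet
  have hprod : Integrable (fun y : Fin n → ℝ => ∏ i, expD (y i)) :=
    Integrable.fintype_prod (f := fun _ => expD) fun _ => integrable_expD
  have hmap : Measure.map (Matrix.toLin' O) (volume : Measure (Fin n → ℝ)) = volume := by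
    rw [Real.map_matrix_volume_pi_eq_smul_volume_pi hdet0, abs_inv, hdet]
    simp
  have hmp : MeasurePreserving (Matrix.toLin' O) (volume : Measure (Fin n → ℝ)) volume :=
    ⟨(LinearMap.continuous_of_finiteDimensional _).measurable, hmap⟩
  have hemb : MeasurableEmbedding (Matrix.toLin' O : (Fin n → ℝ) → (Fin n → ℝ)) := by
    have hinj : Function.Injective (Matrix.toLin' O : (Fin n → ℝ) → (Fin n → ℝ)) := by
      intro x y hxy
      simp only [Matrix.toLin'_apply] at hxy
      have hO' : Oᵀ * O = 1 := mul_eq_one_comm.mp hO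
      have := congrArg (fun v => Oᵀ *ᵥ v) hxy
      simpa [Matrix.mulVec_mulVec, hO'] using this
    exact (LinearMap.continuous_of_finiteDimensional (Matrix.toLin' O)).measurableEmbedding hinj
  constructor
  · exact (hmp.integrable_comp_emb hemb (g := fun y : Fin n → ℝ => ∏ i, expD (y i))).mpr hprod
  · have h1 := hmp.integral_comp hemb (fun y : Fin n → ℝ => ∏ i, expD (y i))
    have h2 : ∫ y : Fin n → ℝ, ∏ i, expD (y i) = 1 := by
      rw [volume_pi, integral_fintype_prod_eq_prod (fun _ : Fin n => expD)]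
      simp [integral_expD]
    rw [h2] at h1
    exact h1

/-- **Block E5.** -/
theorem E5 : StmtE5 := by
  intro n C c a b h hN O hO hCO
  have hg := good_adm h
  have hZ := hg.mass_pos
  have hpm := prob_muC h
  set Z := ∫ y, limDens 0 c C y with hZd
  -- `log Z = n`
  have hlogZ : Real.log Z = n := by
    have h1 := hN.dd
    unfold DD at h1
    rw [hN.cov, Matrix.det_one, Real.log_one, mul_zero, sub_zero] at h1
    unfold entF at h1
    have h2 : (∫ x, limDens 0 c C x * Real.log (limDens 0 c C x)) / Z = 0 := by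
      have h3 : ∀ x, limDens 0 c C x * Real.log (limDens 0 c C x) = (c ⬝ᵥ x) * limDens 0 c C x := by
        intro x
        rw [limDens_zero]
        by_cases hx : x ∈ C
        · rw [indicator_of_mem hx, Real.log_exp]; ring
        · rw [indicator_of_notMem hx]; simp
      simp_rw [h3]
      have h4 := integral_muC h (fun x => c ⬝ᵥ x)
      rw [Ef_dot h hN.mean] at h4
      unfold Ef at h4
      exact h4.symm
    rw [h2] at h1
    linarith
  have hZexp : Z = Real.exp n := by rw [← hlogZ, Real.exp_log hZ]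
  obtain ⟨gi, g1⟩ := gO_int hO
  set φ : (Fin n → ℝ) → ℝ := fun x => c ⬝ᵥ x - n + ∑ i, ((O *ᵥ x) i + 1) with hφ
  have hφi : Integrable φ (muC c C) := by
    have h1 : Integrable (fun x : Fin n → ℝ => c ⬝ᵥ x) (muC c C) := integrable_muC h (pg_dot1 c)
    have h2 : ∀ i, Integrable (fun x : Fin n → ℝ => (O *ᵥ x) i + 1) (muC c C) := fun i =>
      (integrable_muC h (pg_dot1 (O i))).add (integrable_const 1)
    exact (h1.sub (integrable_const _)).add (integrable_finsetSum _ fun i _ => h2 i)
  have hφ0 : ∫ x, φ x ∂(muC c C) = 0 := by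
    have h1 : Integrable (fun x : Fin n → ℝ => c ⬝ᵥ x) (muC c C) := integrable_muC h (pg_dot1 c)
    have h2 : ∀ i, Integrable (fun x : Fin n → ℝ => (O *ᵥ x) i + 1) (muC c C) := fun i =>
      (integrable_muC h (pg_dot1 (O i))).add (integrable_const 1)
    have h3 : Integrable (fun x : Fin n → ℝ => c ⬝ᵥ x - n) (muC c C) :=
      h1.sub (integrable_const _)
    have h4 : Integrable (fun x : Fin n → ℝ => ∑ i, ((O *ᵥ x) i + 1)) (muC c C) :=
      integrable_finsetSum _ fun i _ => h2 i
    rw [hφ]
    rw [integral_add h3 h4, integral_sub h1 (integrable_const _), Ef_dot h hN.mean,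
      integral_finsetSum _ fun i _ => h2 i]
    have h5 : ∀ i, ∫ x, ((O *ᵥ x) i + 1) ∂(muC c C) = 1 := by
      intro i
      have h6 : Integrable (fun x : Fin n → ℝ => (O *ᵥ x) i) (muC c C) :=
        integrable_muC h (pg_dot1 (O i))
      rw [integral_add h6 (integrable_const _)]
      have h7 : ∫ x, (O *ᵥ x) i ∂(muC c C) = 0 := Ef_dot h hN.mean (O i)
      rw [h7]
      simp
    simp_rw [h5]
    simp
  -- transfer to Lebesgue measure
  have hρ : ∀ x, 0 ≤ limDens 0 c C x / Z := fun x => div_nonneg (hg.nn x) hZ.le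
  have hφi' : Integrable (fun x => limDens 0 c C x / Z * φ x) := by
    unfold muC at hφi
    rw [integrable_withDensity_iff_integrable_smul'
      ((measurable_limDens h.closed c).div_const _).ennreal_ofReal
      (Eventually.of_forall fun x => ENNReal.ofReal_lt_top)] at hφi
    refine hφi.congr (Eventually.of_forall fun x => ?_)
    simp only
    rw [ENNReal.toReal_ofReal (hρ x), smul_eq_mul]
  have hφ0' : ∫ x, limDens 0 c C x / Z * φ x = 0 := by
    rw [← hφ0]
    unfold muC
    rw [integral_withDensity_eq_integral_toReal_smul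
      ((measurable_limDens h.closed c).div_const _).ennreal_ofReal
      (Eventually.of_forall fun x => ENNReal.ofReal_lt_top)]
    refine integral_congr_ae (Eventually.of_forall fun x => ?_)
    simp only
    rw [ENNReal.toReal_ofReal (hρ x), smul_eq_mul]
  have hρi : Integrable (fun x => limDens 0 c C x / Z) := hg.int1.div_const _
  have hρ1 : ∫ x, limDens 0 c C x / Z = 1 := by
    rw [integral_div, div_self hZ.ne']
  set H : (Fin n → ℝ) → ℝ := fun x =>
    gO O x - limDens 0 c C x / Z + limDens 0 c C x / Z * φ x with hH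
  have hH0 : ∀ x, 0 ≤ H x := by
    intro x
    rw [hH]
    simp only
    by_cases hx : x ∈ C
    · rw [limDens_zero, indicator_of_mem hx, gO_of_mem O (hCO x hx), hZexp, ← Real.exp_sub]
      have h1 : -∑ i, ((O *ᵥ x) i + 1) = (c ⬝ᵥ x - n) + -φ x := by
        rw [hφ]; ring
      rw [h1, Real.exp_add]
      have h2 := Real.add_one_le_exp (-φ x)
      have h3 : 0 < Real.exp (c ⬝ᵥ x - n) := Real.exp_pos _
      nlinarith
    · have e1 : limDens 0 c C x = 0 := by
        unfold limDens
        rw [indicator_of_notMem hx]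
      rw [e1]
      simpa using gO_nonneg O x
  have hHi : Integrable H := (gi.sub hρi).add hφi'
  have hHint : ∫ x, H x = 0 := by
    have h1 : Integrable (fun x => gO O x - limDens 0 c C x / Z) := gi.sub hρi
    have h2 : ∫ x, (gO O x - limDens 0 c C x / Z) = 0 := by
      rw [integral_sub gi hρi, g1, hρ1, sub_self]
    show ∫ x, (gO O x - limDens 0 c C x / Z + limDens 0 c C x / Z * φ x) = 0
    rw [integral_add h1 hφi', hφ0', h2, add_zero]
  have hHae := (integral_eq_zero_iff_of_nonneg (fun x => hH0 x) hHi).mp hHint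
  -- the part of the orthant outside `C` is null
  have hnull : volume ({x : Fin n → ℝ | ∀ i, -1 ≤ (O *ᵥ x) i} \ C) = 0 := by
    refine measure_mono_null (fun x hx => ?_) (ae_iff.mp hHae)
    rw [mem_ofPred_eq]
    intro h1
    have h2 : H x = 0 := h1
    rw [hH] at h2
    simp only at h2
    have e1 : limDens 0 c C x = 0 := by
      unfold limDens
      rw [indicator_of_notMem hx.2]
    rw [e1, gO_of_mem O hx.1] at h2
    have := Real.exp_pos (-∑ i, ((O *ᵥ x) i + 1))
    simp at h2
  apply Subset.antisymm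
  · intro x hx i
    exact hCO x hx i
  · intro x hx
    by_contra hxC
    have hcontO : Continuous fun y : Fin n → ℝ => O *ᵥ y := by
      exact continuous_const.matrix_mulVec continuous_id
    have hopen : IsOpen (Cᶜ ∩ {y : Fin n → ℝ | ∀ i, -1 < (O *ᵥ y) i}) := by
      refine h.closed.isOpen_compl.inter ?_
      have : {y : Fin n → ℝ | ∀ i, -1 < (O *ᵥ y) i} = ⋂ i, {y : Fin n → ℝ | -1 < (O *ᵥ y) i} := by
        ext y; simp
      rw [this]
      exact isOpen_iInter_of_finite fun i =>
        isOpen_lt continuous_const ((continuous_apply i).comp hcontO)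
    have hne : (Cᶜ ∩ {y : Fin n → ℝ | ∀ i, -1 < (O *ᵥ y) i}).Nonempty := by
      have hlim : Tendsto (fun t : ℝ => x + t • (Oᵀ *ᵥ fun _ => (1 : ℝ))) (𝓝[>] 0) (𝓝 x) := by
        have : Tendsto (fun t : ℝ => x + t • (Oᵀ *ᵥ fun _ => (1 : ℝ))) (𝓝 0)
            (𝓝 (x + (0 : ℝ) • (Oᵀ *ᵥ fun _ => (1 : ℝ)))) := by
          apply Continuous.tendsto
          fun_prop
        rw [zero_smul, add_zero] at this
        exact this.mono_left nhdsWithin_le_nhds
      have h1 := hlim.eventually (h.closed.isOpen_compl.mem_nhds hxC)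
      have h2 : ∀ᶠ t : ℝ in 𝓝[>] 0, 0 < t := self_mem_nhdsWithin
      obtain ⟨t, ht1, ht2⟩ := (h1.and h2).exists
      refine ⟨_, ht1, fun i => ?_⟩
      rw [Matrix.mulVec_add, Matrix.mulVec_smul, Matrix.mulVec_mulVec, hO, Matrix.one_mulVec]
      have h3 : -1 ≤ (O *ᵥ x) i := hx i
      simp only [Pi.add_apply, Pi.smul_apply, smul_eq_mul, mul_one]
      linarith
    have hpos := hopen.measure_pos volume hne
    refine hpos.ne' (measure_mono_null (fun y hy => ?_) hnull)
    exact ⟨fun i => (hy.2 i).le, hy.1⟩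

end Vale.Agent.P254.H54
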